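import Vale.Agent.P201.Integral

/-!
# P201: the leading coefficients of zero divisors in group algebras of torsion-free groups
-/

namespace Vale.Agent.Results.P201.LeadingCoefficients

open Vale.P201

/-- the identity is the only element of finite order -/
def TorsionFree.{v} (G : Type v) [Group G] : Prop := ∀ u : G, IsOfFinOrder u → u = 1

/-- For every valuation `ν` of `K` the leading form of a zero divisor is a zero divisor over the
residue field, and it is not supported in a translate of a subgroup whose group algebra over the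
residue field is a domain. -/
def LeadingForm.{u, v, w} : Prop :=
  ∀ (K : Type u) [Field K] (G : Type v) [Group G] (Γ : Type w)
    [LinearOrderedCommGroupWithZero Γ] (ν : Valuation K Γ) (a b : MonoidAlgebra K G),
    a ≠ 0 → b ≠ 0 → a * b = 0 → ∀ p : G, (∀ x, ν (a.coeff x) ≤ ν (a.coeff p)) →
      (∃ A B : MonoidAlgebra (IsLocalRing.ResidueField ν.valuationSubring) G,
        A ≠ 0 ∧ B ≠ 0 ∧ A * B = 0 ∧
        ∀ x, A.coeff x ≠ 0 ↔ ν (a.coeff x) = ν (a.coeff p)) ∧
      (∀ H : Subgroup G,
        NoZeroDivisors (MonoidAlgebra (IsLocalRing.ResidueField ν.valuationSubring) H) →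
        ∃ g, ν (a.coeff g) = ν (a.coeff p) ∧ p⁻¹ * g ∉ H)

/-- Torsion-free groups: at least three leading coefficients for every valuation, the strict
polygon inequality for every complex embedding, and integral ratios for at most three terms. -/
def TorsionFreeCase.{u, v, w} : Prop :=
  ∀ (K : Type u) [Field K] (G : Type v) [Group G], TorsionFree G →
    ∀ a b : MonoidAlgebra K G, a ≠ 0 → b ≠ 0 → (a * b = 0 ∨ b * a = 0) →
      (∀ (Γ : Type w) [LinearOrderedCommGroupWithZero Γ] (ν : Valuation K Γ) (p : G),
        (∀ x, ν (a.coeff x) ≤ ν (a.coeff p)) →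
        ∃ g h, g ≠ p ∧ h ≠ p ∧ g ≠ h ∧ ν (a.coeff g) = ν (a.coeff p) ∧
          ν (a.coeff h) = ν (a.coeff p)) ∧
      (∀ (σ : K →+* ℂ) (g : G),
        2 * ‖σ (a.coeff g)‖ < ∑ h ∈ a.coeff.support, ‖σ (a.coeff h)‖) ∧
      (a.coeff.support.card ≤ 3 → ∀ x ∈ a.coeff.support, ∀ y ∈ a.coeff.support,
        IsIntegral ℤ (a.coeff x / a.coeff y))

/-- Rational coefficients: with at most three terms all coefficients agree up to sign; with
integer coefficients, none or at least three are not divisible by a given prime. -/
def RationalCase.{v} : Prop :=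
  ∀ (G : Type v) [Group G], TorsionFree G →
    ∀ a b : MonoidAlgebra ℚ G, a ≠ 0 → b ≠ 0 → (a * b = 0 ∨ b * a = 0) →
      (a.coeff.support.card ≤ 3 → ∀ x ∈ a.coeff.support, ∀ y ∈ a.coeff.support,
        a.coeff x = a.coeff y ∨ a.coeff x = - a.coeff y) ∧
      (∀ q : ℕ, q.Prime → ∀ c : G → ℤ, (∀ x, a.coeff x = c x) → ∀ x, ¬ (q : ℤ) ∣ c x →
        ∃ y z, y ≠ x ∧ z ≠ x ∧ y ≠ z ∧ ¬ (q : ℤ) ∣ c y ∧ ¬ (q : ℤ) ∣ c z)

/-- Zero divisors with the least number of terms have integral ratios of coefficients. -/
def FewestTerms.{u, v} : Prop :=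
  ∀ (K : Type u) [Field K] (G : Type v) [Group G] (a b : MonoidAlgebra K G),
    a ≠ 0 → b ≠ 0 → a * b = 0 →
    (∀ (k : Type u) [Field k] (A B : MonoidAlgebra k G), A ≠ 0 → B ≠ 0 → A * B = 0 →
      a.coeff.support.card ≤ A.coeff.support.card) →
    ∀ x ∈ a.coeff.support, ∀ y ∈ a.coeff.support, IsIntegral ℤ (a.coeff x / a.coeff y)

/-- Necessary conditions for zero divisors in group algebras. -/
theorem result.{u, v, w} :
    LeadingForm.{u, v, w} ∧ TorsionFreeCase.{u, v, w} ∧ RationalCase.{v} ∧
      FewestTerms.{u, v} := by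
  refine ⟨?_, ?_, ?_, ?_⟩
  · intro K _ G _ Γ _ ν a b ha hb hab p hp
    have hp0 := max_ne_zero ν ha hp
    refine ⟨?_, fun H hH => leading_residue ν hab hb hp hp0 H hH⟩
    obtain ⟨A, B, hA, hB, hAB, hsupp, -⟩ := leading_form ν hab hb hp hp0
    exact ⟨A, B, hA, hB, hAB, hsupp⟩
  · intro K _ G _ htf a b ha hb hab
    rcases hab with hab | hab
    · refine ⟨?_, ?_, ?_⟩
      · intro Γ _ ν p hp
        exact three_leading ν (tf_pow htf) hab hb hp (max_ne_zero ν ha hp)
      · intro σ g
        exact strict_polygon σ (tf_pow htf) hab ha hb g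
      · intro hcard x hx y hy
        exact ratio_integral (tf_pow htf) hab ha hb hcard hx hy
    · have hab' := opp_mul hab
      refine ⟨?_, ?_, ?_⟩
      · intro Γ _ ν p hp
        obtain ⟨g, h, h1, h2, h3, h4, h5⟩ := three_leading ν (opp_tf htf) hab' (opp_ne_zero hb)
          (p := MulOpposite.op p) (fun x => hp _) (max_ne_zero ν ha hp)
        exact ⟨g.unop, h.unop, fun h => h1 (MulOpposite.unop_injective h),
          fun h => h2 (MulOpposite.unop_injective h), fun h => h3 (MulOpposite.unop_injective h),
          h4, h5⟩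
      · intro σ g
        have := strict_polygon σ (opp_tf htf) hab' (opp_ne_zero ha) (opp_ne_zero hb)
          (MulOpposite.op g)
        rw [opp_support, Finset.sum_map] at this
        exact this
      · intro hcard x hx y hy
        have hcard' : (opp a).coeff.support.card ≤ 3 := by
          rw [opp_support, Finset.card_map]
          exact hcard
        exact ratio_integral (opp_tf htf) hab' (opp_ne_zero ha) (opp_ne_zero hb) hcard'
          (x := MulOpposite.op x) (y := MulOpposite.op y)
          (opp_mem hx) (opp_mem hy)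
  · intro G _ htf a b ha hb hab
    rcases hab with hab | hab
    · refine ⟨?_, ?_⟩
      · intro hcard x hx y hy
        exact rat_eq_or_neg (tf_pow htf) hab ha hb hcard hx hy
      · intro q hq c hc x hx
        exact int_three hq (tf_pow htf) c hc hab hb hx
    · have hab' := opp_mul hab
      refine ⟨?_, ?_⟩
      · intro hcard x hx y hy
        have hcard' : (opp a).coeff.support.card ≤ 3 := by
          rw [opp_support, Finset.card_map]
          exact hcard
        exact rat_eq_or_neg (opp_tf htf) hab' (opp_ne_zero ha) (opp_ne_zero hb) hcard'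
          (x := MulOpposite.op x) (y := MulOpposite.op y)
          (opp_mem hx) (opp_mem hy)
      · intro q hq c hc x hx
        obtain ⟨y, z, h1, h2, h3, h4, h5⟩ := int_three hq (opp_tf htf) (fun z => c z.unop)
          (a := opp a) (fun z => hc _) hab' (opp_ne_zero hb) (x := MulOpposite.op x) hx
        exact ⟨y.unop, z.unop, fun h => h1 (MulOpposite.unop_injective h),
          fun h => h2 (MulOpposite.unop_injective h), fun h => h3 (MulOpposite.unop_injective h),
          h4, h5⟩
  · intro K _ G _ a b ha hb hab hmin x hx y hy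
    exact ratio_integral_min hab ha hb hmin hx hy

end Vale.Agent.Results.P201.LeadingCoefficients
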